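import Vale.Agent.P032.R2.H470.Rup

/-!
# List colourings of finite graphs: kernel-checked impossibility

`N` points `0, ..., N-1`, colours `0, ..., K-1`; variable `x * K + c` = the point `x` has the
colour `c`.  `L` = the lists, `E` = the used edges with a colour (`(x, y, c)`: `x` and `y` do not
both have the colour `c`).  `no_coloring` turns a checked LRAT proof into the statement.
-/

namespace Vale.Agent.P032.H470

/-- clauses of the lists, the first point is `x` -/
noncomputable def genL (K : Nat) (L : List (List Nat)) : Nat → List (List Nat) → List (List Nat) :=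
  List.rec (motive := fun _ => Nat → List (List Nat) → List (List Nat)) (fun _ R => R)
    (fun l _ ih x R => (List.rec (motive := fun _ => List Nat) []
      (fun c _ t => Nat.add (Nat.mul x K) c :: t) l) :: ih (Nat.succ x) R) L

/-- clauses of the edges -/
noncomputable def genE (n K : Nat) (E : List (Nat × Nat × Nat)) : List (List Nat) :=
  List.rec (motive := fun _ => List (List Nat)) []
    (fun e _ ih => [Nat.add n (Nat.add (Nat.mul e.1 K) e.2.2),
      Nat.add n (Nat.add (Nat.mul e.2.1 K) e.2.2)] :: ih) E

/-- decode `k` triples from a stream of digits in base `2^20` -/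
noncomputable def dec3 (k : Nat) : Nat → List (Nat × Nat × Nat) :=
  Nat.rec (motive := fun _ => Nat → List (Nat × Nat × Nat)) (fun _ => [])
    (fun _ ih S => (Nat.land S 1048575, Nat.land (Nat.shiftRight S 20) 1048575,
      Nat.land (Nat.shiftRight S 40) 1048575) :: ih (Nat.shiftRight S 60)) k

/-- all edges are between points `< N`, with colours `< K` -/
noncomputable def okE (N K : Nat) (E : List (Nat × Nat × Nat)) : Bool :=
  List.rec (motive := fun _ => Bool) true
    (fun e _ ih => Bool.rec (motive := fun _ => Bool) false
      (Bool.rec (motive := fun _ => Bool) false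
        (Bool.rec (motive := fun _ => Bool) false ih (Nat.blt e.2.2 K)) (Nat.blt e.2.1 N))
      (Nat.blt e.1 N)) E

theorem bool_and {a b : Bool} (h : Bool.rec (motive := fun _ => Bool) false b a = true) :
    a = true ∧ b = true := by
  cases a
  · exact Bool.noConfusion h
  · exact ⟨rfl, h⟩

theorem okE_spec {N K : Nat} : ∀ {E : List (Nat × Nat × Nat)}, okE N K E = true →
    ∀ e ∈ E, e.1 < N ∧ e.2.1 < N ∧ e.2.2 < K := by
  intro E
  induction E with
  | nil => intro _ e he; exact absurd he (by simp)
  | cons e E ih =>
    intro h e' he'
    obtain ⟨h1, h⟩ := bool_and h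
    obtain ⟨h2, h⟩ := bool_and h
    obtain ⟨h3, h⟩ := bool_and h
    rcases List.mem_cons.1 he' with rfl | h4
    · exact ⟨Nat.le_of_ble_eq_true h1, Nat.le_of_ble_eq_true h2, Nat.le_of_ble_eq_true h3⟩
    · exact ih h e' h4

/-- The whole check. -/
noncomputable def checkCol (N K k m : Nat) (L : List (List Nat)) (E : List (Nat × Nat × Nat))
    (P : List (Nat × Nat)) : Bool :=
  force (Nat.mul N K) (fun n =>
    Bool.rec (motive := fun _ => Bool) false
      (Bool.rec (motive := fun _ => Bool) false
        (check n k m (genL K L 0 (genE n K E)) P) (okE N K E))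
      (Nat.ble L.length N))

/-- **No list colouring.** -/
theorem no_coloring {N K k m : Nat} {L : List (List Nat)} {E : List (Nat × Nat × Nat)}
    {P : List (Nat × Nat)} (hn : 0 < N * K) (h : checkCol N K k m L E P = true) (f : Nat → Nat)
    (hK : ∀ x, x < N → f x < K)
    (hL : ∀ x l, L[x]? = some l → f x ∈ l) (hE : ∀ e ∈ E, f e.1 ≠ f e.2.1) : False := by
  unfold checkCol at h
  rw [force_eq] at h
  obtain ⟨h0, h⟩ := bool_and h
  obtain ⟨h1, h⟩ := bool_and h
  have hLN : L.length ≤ N := Nat.le_of_ble_eq_true h0
  have hn' : 0 < Nat.mul N K := hn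
  refine unsat_of_check hn' h (fun i => decide (f (i / K) = i % K)) ?_
  have hKpos : 0 < K := by
    rcases Nat.eq_zero_or_pos K with h | h
    · subst h; simp at hn
    · exact h
  have hval : ∀ x c, x < N → c < K →
      ilit (Nat.mul N K) (fun i => decide (f (i / K) = i % K)) (x * K + c) = decide (f x = c) := by
    intro x c hx hc
    have hlt : x * K + c < Nat.mul N K := by
      change x * K + c < N * K
      calc x * K + c < x * K + K := by omega
        _ = (x + 1) * K := by rw [Nat.succ_mul]
        _ ≤ N * K := Nat.mul_le_mul_right K hx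
    unfold ilit
    rw [if_pos hlt]
    have e1 : (x * K + c) / K = x := by
      rw [Nat.mul_comm, Nat.mul_add_div hKpos, Nat.div_eq_of_lt hc, Nat.add_zero]
    have e2 : (x * K + c) % K = c := by
      rw [Nat.mul_comm, Nat.mul_add_mod, Nat.mod_eq_of_lt hc]
    change decide (f ((x * K + c) / K) = (x * K + c) % K) = _
    rw [e1, e2]
  have hneg : ∀ x c, x < N → c < K →
      ilit (Nat.mul N K) (fun i => decide (f (i / K) = i % K)) (Nat.mul N K + (x * K + c)) =
        !decide (f x = c) := by
    intro x c hx hc
    have hlt : x * K + c < Nat.mul N K := by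
      change x * K + c < N * K
      calc x * K + c < x * K + K := by omega
        _ = (x + 1) * K := by rw [Nat.succ_mul]
        _ ≤ N * K := Nat.mul_le_mul_right K hx
    have h5 := hval x c hx hc
    unfold ilit at h5 ⊢
    rw [if_pos hlt] at h5
    rw [if_neg (by omega), if_pos (by omega), Nat.add_sub_cancel_left, h5]
  have hEn : ∀ (E : List (Nat × Nat × Nat)), (∀ e ∈ E, e.1 < N ∧ e.2.1 < N ∧ e.2.2 < K) →
      (∀ e ∈ E, f e.1 ≠ f e.2.1) → ∀ c ∈ genE (Nat.mul N K) K E, ∃ l ∈ c,
        ilit (Nat.mul N K) (fun i => decide (f (i / K) = i % K)) l = true := by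
    intro E
    induction E with
    | nil => intro _ _ c hc; exact absurd hc (by simp [genE])
    | cons e E ih =>
      intro hb hE c hc
      have hc' : c ∈ [Nat.mul N K + (e.1 * K + e.2.2), Nat.mul N K + (e.2.1 * K + e.2.2)] ::
          genE (Nat.mul N K) K E := hc
      rcases List.mem_cons.1 hc' with rfl | hc''
      · obtain ⟨b1, b2, b3⟩ := hb e (List.mem_cons_self ..)
        have hne := hE e (List.mem_cons_self ..)
        by_cases h6 : f e.1 = e.2.2
        · refine ⟨_, List.mem_cons_of_mem _ (List.mem_cons_self ..), ?_⟩
          rw [hneg _ _ b2 b3]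
          have : ¬ f e.2.1 = e.2.2 := by
            intro h7; exact hne (h6.trans h7.symm)
          simp [this]
        · refine ⟨_, List.mem_cons_self .., ?_⟩
          rw [hneg _ _ b1 b3]
          simp [h6]
      · exact ih (fun e he => hb e (List.mem_cons_of_mem _ he))
          (fun e he => hE e (List.mem_cons_of_mem _ he)) c hc''
  have hLn : ∀ (L : List (List Nat)) (x : Nat) (R : List (List Nat)), x + L.length ≤ N →
      (∀ y l, L[y]? = some l → f (x + y) ∈ l) →
      (∀ c ∈ R, ∃ l ∈ c,
        ilit (Nat.mul N K) (fun i => decide (f (i / K) = i % K)) l = true) →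
      ∀ c ∈ genL K L x R, ∃ l ∈ c,
        ilit (Nat.mul N K) (fun i => decide (f (i / K) = i % K)) l = true := by
    intro L
    induction L with
    | nil => intro x R _ _ hR c hc; exact hR c hc
    | cons l L ih =>
      intro x R hx hy hR c hc
      have hc' : c ∈ (List.rec (motive := fun _ => List Nat) []
          (fun c _ t => (x * K + c) :: t) l : List Nat) :: genL K L (x + 1) R := hc
      rw [List.length_cons] at hx
      rcases List.mem_cons.1 hc' with rfl | hc''
      · have hm : f (x + 0) ∈ l := hy 0 l rfl
        rw [Nat.add_zero] at hm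
        have hmem : ∀ (l : List Nat), f x ∈ l → x * K + f x ∈
            (List.rec (motive := fun _ => List Nat) [] (fun c _ t => (x * K + c) :: t) l :
              List Nat) := by
          intro l
          induction l with
          | nil => intro h; exact absurd h (by simp)
          | cons a l ih =>
            intro h
            rcases List.mem_cons.1 h with h | h
            · exact List.mem_cons.2 (Or.inl (by rw [h]))
            · exact List.mem_cons.2 (Or.inr (ih h))
        refine ⟨_, hmem l hm, ?_⟩
        rw [hval _ _ (by omega) (hK x (by omega))]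
        simp
      · refine ih (x + 1) R (by omega) ?_ hR c hc''
        intro y l' hl'
        have := hy (y + 1) l' (by simpa using hl')
        rw [show x + 1 + y = x + (y + 1) by omega]
        exact this
  refine hLn L 0 _ (by omega) ?_ (hEn E (okE_spec h1) hE)
  intro y l hl
  rw [Nat.zero_add]
  exact hL y l hl

end Vale.Agent.P032.H470
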