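import Vale.Agent.P032.R2.H470.Rup

/-!
# A fast kernel checker: this finite graph has no list colouring

`N` points, `K` colours.  The state is a bit mask `A` of the possible (point, colour) pairs: bit
`c * N + x`.  The graph is one number `J`: bit `x * N + y`: `x` and `y` are adjacent.
The certificate is a sequence of nogoods.  Each is proved by events: the point `x` has at most one
possible colour, delete it at all neighbours; or a proved nogood restricts the point `x`.
-/

namespace Vale.Agent.P032.H470

/-- all clauses of the data base satisfy `P` -/
def DB.All (P : Nat → Prop) : DB → Prop
  | .nil => True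
  | .leaf D => P D
  | .node _ l r => l.All P ∧ r.All P

theorem get_all {P : Nat → Prop} {d : Nat} (hd : P d) (i : Nat) :
    ∀ (db : DB), db.All P → P (get d i db) := by
  intro db
  induction db with
  | nil => intro _; exact hd
  | leaf D => intro h; exact h
  | node p l r ihl ihr =>
    intro h
    have key : ∀ b : Nat, P (Nat.rec (motive := fun _ => Nat) (get d i l)
        (fun _ _ => get d i r) b) := by
      intro b
      cases b with
      | zero => exact ihl h.1
      | succ b => exact ihr h.2
    exact key _

theorem ins_all {P : Nat → Prop} {D : Nat} (hD : P D) (i : Nat) :
    ∀ (k p : Nat) (db : DB), db.All P → (ins D i k p db).All P := by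
  intro k
  induction k with
  | zero => intro p db _; exact hD
  | succ k ih =>
    intro p db h
    have key0 : ∀ b : Nat, (Nat.rec (motive := fun _ => DB)
        (DB.node p (ins D i k (Nat.div p 2) DB.nil) DB.nil)
        (fun _ _ => DB.node p DB.nil (ins D i k (Nat.div p 2) DB.nil)) b : DB).All P := by
      intro b
      cases b with
      | zero => exact ⟨ih _ _ trivial, trivial⟩
      | succ b => exact ⟨trivial, ih _ _ trivial⟩
    cases db with
    | nil => exact key0 _
    | leaf E => exact key0 _
    | node q l r =>
      have key : ∀ b : Nat, (Nat.rec (motive := fun _ => DB)
          (DB.node q (ins D i k (Nat.div p 2) l) r)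
          (fun _ _ => DB.node q l (ins D i k (Nat.div p 2) r)) b : DB).All P := by
        intro b
        cases b with
        | zero => exact ⟨ih _ _ h.1, h.2⟩
        | succ b => exact ⟨h.1, ih _ _ h.2⟩
      exact key _

/-- the colouring `f` is compatible with the mask `A` -/
def Fits (N : Nat) (f : Nat → Nat) (A : Nat) : Prop := ∀ x, x < N → A.testBit (f x * N + x) = true

/-- the colouring `f` meets the mask `D` -/
def Meets (N : Nat) (f : Nat → Nat) (D : Nat) : Prop :=
  ∃ x, x < N ∧ D.testBit (f x * N + x) = true

/-- the pairs of the point `0`: bits `c * N`, `c < K` -/
noncomputable def V0 (N K : Nat) : Nat :=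
  Nat.rec (motive := fun _ => Nat) 0 (fun c v => Nat.lor v (Nat.shiftLeft 1 (Nat.mul c N))) K

theorem V0_spec (N : Nat) : ∀ (K j : Nat), (V0 N K).testBit j = true ↔ ∃ c, c < K ∧ j = c * N := by
  intro K
  induction K with
  | zero =>
    intro j
    change (0 : Nat).testBit j = true ↔ _
    rw [Nat.zero_testBit]
    constructor
    · intro h; exact Bool.noConfusion h
    · rintro ⟨c, hc, _⟩; omega
  | succ K ih =>
    intro j
    change (V0 N K ||| (1 <<< (K * N))).testBit j = true ↔ _
    rw [Nat.testBit_or, Nat.one_shiftLeft, Nat.testBit_two_pow, Bool.or_eq_true, ih j]
    constructor
    · rintro (⟨c, hc, h⟩ | h)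
      · exact ⟨c, by omega, h⟩
      · exact ⟨K, by omega, (of_decide_eq_true h).symm⟩
    · rintro ⟨c, hc, h⟩
      rcases Nat.lt_or_ge c K with h' | h'
      · exact Or.inl ⟨c, h', h⟩
      · right
        have : c = K := by omega
        subst this
        exact decide_eq_true h.symm

theorem Vx_self {N K x c : Nat} (hc : c < K) : (Nat.shiftLeft (V0 N K) x).testBit (c * N + x) = true
    := by
  change (V0 N K <<< x).testBit (c * N + x) = true
  rw [Nat.testBit_shiftLeft, Nat.add_sub_cancel, (V0_spec N K (c * N)).2 ⟨c, hc, rfl⟩]
  simp

theorem mod_eq {N a b x y : Nat} (hx : x < N) (hy : y < N) (h : a * N + x = b * N + y) :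
    a = b ∧ x = y := by
  have h1 : (a * N + x) % N = x := by
    rw [Nat.mul_comm, Nat.mul_add_mod, Nat.mod_eq_of_lt hx]
  have h2 : (b * N + y) % N = y := by
    rw [Nat.mul_comm, Nat.mul_add_mod, Nat.mod_eq_of_lt hy]
  have h3 : x = y := by rw [← h1, h, h2]
  refine ⟨?_, h3⟩
  subst h3
  have h4 : a * N = b * N := by omega
  exact Nat.eq_of_mul_eq_mul_right (by omega) h4

theorem Vx_inj {N K x y c : Nat} (hx : x < N) (hy : y < N)
    (h : (Nat.shiftLeft (V0 N K) x).testBit (c * N + y) = true) : y = x := by
  change (V0 N K <<< x).testBit (c * N + y) = true at h
  rw [Nat.testBit_shiftLeft, Bool.and_eq_true] at h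
  obtain ⟨h1, h2⟩ := h
  obtain ⟨b, _, h3⟩ := (V0_spec N K _).1 h2
  have h1' : x ≤ c * N + y := of_decide_eq_true h1
  exact (mod_eq hy hx (show c * N + y = b * N + x by omega)).2

/-- the events; `res` is returned at a conflict -/
noncomputable def ev (N V J R d : Nat) (db : DB) (m : Nat) : Nat → Nat → Bool → Bool :=
  Nat.rec (motive := fun _ => Nat → Nat → Bool → Bool) (fun _ _ _ => false)
    (fun _ ih S A res =>
      Nat.rec (motive := fun _ => Bool) false
        (fun i _ =>
          Nat.rec (motive := fun _ => Bool)
            (Nat.rec (motive := fun _ => Bool) res
              (fun q _ =>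
                Nat.rec (motive := fun _ => Bool)
                  (ih (Nat.shiftRight S 20)
                    (Nat.xor A (Nat.land A (Nat.mul (Nat.land (Nat.shiftRight J (Nat.mul i N)) R)
                      (Nat.shiftRight (Nat.succ q) i)))) res)
                  (fun _ _ => false) (Nat.land (Nat.succ q) q))
              (Nat.land A (Nat.shiftLeft V i)))
            (fun j _ =>
              Nat.rec (motive := fun _ => Bool) res
                (fun q _ =>
                  Nat.rec (motive := fun _ => Bool) false
                    (fun x _ =>
                      Bool.rec (motive := fun _ => Bool) false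
                        (ih (Nat.shiftRight S 40)
                          (Nat.xor (Nat.xor A (Nat.land A (Nat.shiftLeft V x))) (Nat.succ q)) res)
                        (Bool.rec (motive := fun _ => Bool) false
                          (Nat.ble (Nat.succ x) N)
                          (Nat.beq (Nat.land (Nat.succ q) (Nat.shiftLeft V x)) (Nat.succ q))))
                    (Nat.land (Nat.shiftRight S 20) 1048575))
                (Nat.land (get d j db) A))
            (Nat.sub (Nat.succ i) N))
        (Nat.land S 1048575)) m

theorem ev_spec {N K J R d : Nat} {db : DB} (hR : R = 2 ^ N - 1) :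
    ∀ (m S A : Nat) (res : Bool), ev N (V0 N K) J R d db m S A res = true →
      (∀ f : Nat → Nat, (∀ x, x < N → f x < K) →
        (∀ x y, x < N → y < N → J.testBit (x * N + y) = true → f x ≠ f y) →
        Meets N f d → db.All (Meets N f) → ¬ Fits N f A) ∧ res = true := by
  intro m
  induction m with
  | zero => intro S A res h; exact Bool.noConfusion h
  | succ m ih =>
    intro S A res h
    change Nat.rec (motive := fun _ => Bool) false
        (fun i _ =>
          Nat.rec (motive := fun _ => Bool)
            (Nat.rec (motive := fun _ => Bool) res
              (fun q _ =>
                Nat.rec (motive := fun _ => Bool)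
                  (ev N (V0 N K) J R d db m (Nat.shiftRight S 20)
                    (Nat.xor A (Nat.land A (Nat.mul (Nat.land (Nat.shiftRight J (Nat.mul i N)) R)
                      (Nat.shiftRight (Nat.succ q) i)))) res)
                  (fun _ _ => false) (Nat.land (Nat.succ q) q))
              (Nat.land A (Nat.shiftLeft (V0 N K) i)))
            (fun j _ =>
              Nat.rec (motive := fun _ => Bool) res
                (fun q _ =>
                  Nat.rec (motive := fun _ => Bool) false
                    (fun x _ =>
                      Bool.rec (motive := fun _ => Bool) false
                        (ev N (V0 N K) J R d db m (Nat.shiftRight S 40)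
                          (Nat.xor (Nat.xor A (Nat.land A (Nat.shiftLeft (V0 N K) x)))
                            (Nat.succ q)) res)
                        (Bool.rec (motive := fun _ => Bool) false
                          (Nat.ble (Nat.succ x) N)
                          (Nat.beq (Nat.land (Nat.succ q) (Nat.shiftLeft (V0 N K) x))
                            (Nat.succ q))))
                    (Nat.land (Nat.shiftRight S 20) 1048575))
                (Nat.land (get d j db) A))
            (Nat.sub (Nat.succ i) N))
        (Nat.land S 1048575) = true at h
    generalize Nat.land S 1048575 = e at h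
    cases e with
    | zero => exact Bool.noConfusion h
    | succ i =>
      change Nat.rec (motive := fun _ => Bool)
            (Nat.rec (motive := fun _ => Bool) res
              (fun q _ =>
                Nat.rec (motive := fun _ => Bool)
                  (ev N (V0 N K) J R d db m (Nat.shiftRight S 20)
                    (Nat.xor A (Nat.land A (Nat.mul (Nat.land (Nat.shiftRight J (Nat.mul i N)) R)
                      (Nat.shiftRight (Nat.succ q) i)))) res)
                  (fun _ _ => false) (Nat.land (Nat.succ q) q))
              (Nat.land A (Nat.shiftLeft (V0 N K) i)))
            (fun j _ =>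
              Nat.rec (motive := fun _ => Bool) res
                (fun q _ =>
                  Nat.rec (motive := fun _ => Bool) false
                    (fun x _ =>
                      Bool.rec (motive := fun _ => Bool) false
                        (ev N (V0 N K) J R d db m (Nat.shiftRight S 40)
                          (Nat.xor (Nat.xor A (Nat.land A (Nat.shiftLeft (V0 N K) x)))
                            (Nat.succ q)) res)
                        (Bool.rec (motive := fun _ => Bool) false
                          (Nat.ble (Nat.succ x) N)
                          (Nat.beq (Nat.land (Nat.succ q) (Nat.shiftLeft (V0 N K) x))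
                            (Nat.succ q))))
                    (Nat.land (Nat.shiftRight S 20) 1048575))
                (Nat.land (get d j db) A))
            (Nat.sub (Nat.succ i) N) = true at h
      cases hj : Nat.sub (Nat.succ i) N with
      | zero =>
        have hiN : i < N := by
          have : i + 1 - N = 0 := hj
          omega
        rw [hj] at h
        change Nat.rec (motive := fun _ => Bool) res
              (fun q _ =>
                Nat.rec (motive := fun _ => Bool)
                  (ev N (V0 N K) J R d db m (Nat.shiftRight S 20)
                    (Nat.xor A (Nat.land A (Nat.mul (Nat.land (Nat.shiftRight J (Nat.mul i N)) R)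
                      (Nat.shiftRight (Nat.succ q) i)))) res)
                  (fun _ _ => false) (Nat.land (Nat.succ q) q))
              (Nat.land A (Nat.shiftLeft (V0 N K) i)) = true at h
        have hand : ∀ l, (Nat.land A (Nat.shiftLeft (V0 N K) i)).testBit l =
            (A.testBit l && (Nat.shiftLeft (V0 N K) i).testBit l) := fun l => Nat.testBit_and _ _ l
        generalize hr : Nat.land A (Nat.shiftLeft (V0 N K) i) = r at h hand
        cases r with
        | zero =>
          refine ⟨?_, h⟩
          intro f hK hE hd hdb hA
          have h1 := hand (f i * N + i)
          rw [Nat.zero_testBit, hA i hiN, Vx_self (hK i hiN)] at h1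
          exact Bool.noConfusion h1
        | succ q =>
          change Nat.rec (motive := fun _ => Bool)
                  (ev N (V0 N K) J R d db m (Nat.shiftRight S 20)
                    (Nat.xor A (Nat.land A (Nat.mul (Nat.land (Nat.shiftRight J (Nat.mul i N)) R)
                      (Nat.shiftRight (Nat.succ q) i)))) res)
                  (fun _ _ => false) (Nat.land (Nat.succ q) q) = true at h
          cases hq : Nat.land (Nat.succ q) q with
          | succ q' => rw [hq] at h; exact Bool.noConfusion h
          | zero =>
            rw [hq] at h
            obtain ⟨h1, h2⟩ := ih _ _ _ h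
            refine ⟨?_, h2⟩
            intro f hK hE hd hdb hA
            refine h1 f hK hE hd hdb ?_
            obtain ⟨l, hl⟩ : (q + 1).isPowerOfTwo := by
              refine (Nat.and_sub_one_eq_zero_iff_isPowerOfTwo (Nat.succ_ne_zero q)).1 ?_
              exact hq
            have hl' : l = f i * N + i := by
              have h3 := hand (f i * N + i)
              rw [hA i hiN, Vx_self (hK i hiN), show q + 1 = 2 ^ l from hl,
                Nat.testBit_two_pow] at h3
              simpa using h3
            intro y hy
            change (A ^^^ (A &&& ((Nat.shiftRight J (Nat.mul i N) &&& R) *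
              ((q + 1) >>> i)))).testBit (f y * N + y) = true
            rw [Nat.testBit_xor, Nat.testBit_and, hA y hy]
            have h4 : ((Nat.shiftRight J (Nat.mul i N) &&& R) *
              ((q + 1) >>> i)).testBit (f y * N + y) = false := by
              have h5 : (q + 1) >>> i = 2 ^ (f i * N) := by
                rw [hl, hl', Nat.shiftRight_eq_div_pow, Nat.pow_add,
                  Nat.mul_div_cancel _ (Nat.pow_pos (by decide))]
              rw [h5, ← Nat.shiftLeft_eq, Nat.testBit_shiftLeft]
              cases h6 : decide (f y * N + y ≥ f i * N) with
              | false => rfl
              | true =>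
                have h6' : f i * N ≤ f y * N + y := of_decide_eq_true h6
                rw [Bool.true_and, Nat.testBit_and, hR, Nat.testBit_two_pow_sub_one]
                cases h7 : decide (f y * N + y - f i * N < N) with
                | false => simp
                | true =>
                  have h7' : f y * N + y - f i * N < N := of_decide_eq_true h7
                  have h8 := mod_eq (a := f y) (b := f i) hy h7'
                    (show f y * N + y = f i * N + (f y * N + y - f i * N) by omega)
                  rw [Bool.and_true, ← h8.2]
                  change (J >>> (i * N)).testBit y = false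
                  rw [Nat.testBit_shiftRight]
                  cases h9 : J.testBit (i * N + y) with
                  | false => rfl
                  | true => exact absurd h8.1.symm (hE i y hiN hy h9)
            rw [h4]
            rfl
      | succ j =>
        rw [hj] at h
        change Nat.rec (motive := fun _ => Bool) res
                (fun q _ =>
                  Nat.rec (motive := fun _ => Bool) false
                    (fun x _ =>
                      Bool.rec (motive := fun _ => Bool) false
                        (ev N (V0 N K) J R d db m (Nat.shiftRight S 40)
                          (Nat.xor (Nat.xor A (Nat.land A (Nat.shiftLeft (V0 N K) x)))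
                            (Nat.succ q)) res)
                        (Bool.rec (motive := fun _ => Bool) false
                          (Nat.ble (Nat.succ x) N)
                          (Nat.beq (Nat.land (Nat.succ q) (Nat.shiftLeft (V0 N K) x))
                            (Nat.succ q))))
                    (Nat.land (Nat.shiftRight S 20) 1048575))
                (Nat.land (get d j db) A) = true at h
        generalize hD : get d j db = D at h
        have hDs : ∀ f, Meets N f d → db.All (Meets N f) → Meets N f D := by
          intro f hd hdb
          rw [← hD]
          exact get_all hd j db hdb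
        have hand : ∀ l, (Nat.land D A).testBit l = (D.testBit l && A.testBit l) :=
          fun l => Nat.testBit_and _ _ l
        generalize hr : Nat.land D A = r at h hand
        cases r with
        | zero =>
          refine ⟨?_, h⟩
          intro f hK hE hd hdb hA
          obtain ⟨x, hx, h1⟩ := hDs f hd hdb
          have h2 := hand (f x * N + x)
          rw [Nat.zero_testBit, h1, hA x hx] at h2
          exact Bool.noConfusion h2
        | succ q =>
          change Nat.rec (motive := fun _ => Bool) false
                    (fun x _ =>
                      Bool.rec (motive := fun _ => Bool) false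
                        (ev N (V0 N K) J R d db m (Nat.shiftRight S 40)
                          (Nat.xor (Nat.xor A (Nat.land A (Nat.shiftLeft (V0 N K) x)))
                            (Nat.succ q)) res)
                        (Bool.rec (motive := fun _ => Bool) false
                          (Nat.ble (Nat.succ x) N)
                          (Nat.beq (Nat.land (Nat.succ q) (Nat.shiftLeft (V0 N K) x))
                            (Nat.succ q))))
                    (Nat.land (Nat.shiftRight S 20) 1048575) = true at h
          generalize Nat.land (Nat.shiftRight S 20) 1048575 = y at h
          cases y with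
          | zero => exact Bool.noConfusion h
          | succ x =>
            change Bool.rec (motive := fun _ => Bool) false
                        (ev N (V0 N K) J R d db m (Nat.shiftRight S 40)
                          (Nat.xor (Nat.xor A (Nat.land A (Nat.shiftLeft (V0 N K) x)))
                            (Nat.succ q)) res)
                        (Bool.rec (motive := fun _ => Bool) false
                          (Nat.ble (Nat.succ x) N)
                          (Nat.beq (Nat.land (Nat.succ q) (Nat.shiftLeft (V0 N K) x))
                            (Nat.succ q))) = true at h
            cases h1 : Nat.beq (Nat.land (Nat.succ q) (Nat.shiftLeft (V0 N K) x)) (Nat.succ q) with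
            | false => rw [h1] at h; exact Bool.noConfusion h
            | true =>
              rw [h1] at h
              cases h2 : Nat.ble (Nat.succ x) N with
              | false =>
                change Bool.rec (motive := fun _ => Bool) false
                        (ev N (V0 N K) J R d db m (Nat.shiftRight S 40)
                          (Nat.xor (Nat.xor A (Nat.land A (Nat.shiftLeft (V0 N K) x)))
                            (Nat.succ q)) res)
                        (Nat.ble (Nat.succ x) N) = true at h
                rw [h2] at h; exact Bool.noConfusion h
              | true =>
                change Bool.rec (motive := fun _ => Bool) false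
                        (ev N (V0 N K) J R d db m (Nat.shiftRight S 40)
                          (Nat.xor (Nat.xor A (Nat.land A (Nat.shiftLeft (V0 N K) x)))
                            (Nat.succ q)) res)
                        (Nat.ble (Nat.succ x) N) = true at h
                rw [h2] at h
                have hx : x < N := Nat.le_of_ble_eq_true h2
                obtain ⟨h3, h4⟩ := ih _ _ _ h
                refine ⟨?_, h4⟩
                intro f hK hE hd hdb hA
                refine h3 f hK hE hd hdb ?_
                have hq : ∀ l, (q + 1).testBit l = true →
                    (Nat.shiftLeft (V0 N K) x).testBit l = true := by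
                  intro l hl
                  have h5 : ((q + 1) &&& (Nat.shiftLeft (V0 N K) x)) = q + 1 :=
                    Nat.eq_of_beq_eq_true h1
                  rw [← h5, Nat.testBit_and, Bool.and_eq_true] at hl
                  exact hl.2
                have hfx : (q + 1).testBit (f x * N + x) = true := by
                  obtain ⟨z, hz, h6⟩ := hDs f hd hdb
                  have h7 : (q + 1).testBit (f z * N + z) = true := by
                    rw [show q + 1 = Nat.succ q from rfl, hand, h6, hA z hz]; rfl
                  have h8 := Vx_inj hx hz (hq _ h7)
                  rw [h8] at h7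
                  exact h7
                intro y hy
                change ((A ^^^ (A &&& (Nat.shiftLeft (V0 N K) x))) ^^^ (q + 1)).testBit
                  (f y * N + y) = true
                rw [Nat.testBit_xor, Nat.testBit_xor, Nat.testBit_and, hA y hy]
                by_cases hyx : y = x
                · subst hyx
                  rw [hfx, Vx_self (hK y hy)]
                  rfl
                · cases h9 : (Nat.shiftLeft (V0 N K) x).testBit (f y * N + y) with
                  | true => exact absurd (Vx_inj hx hy h9) hyx
                  | false =>
                    cases h10 : (q + 1).testBit (f y * N + y) with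
                    | true =>
                      have := hq _ h10
                      rw [h9] at this
                      exact Bool.noConfusion this
                    | false => rfl

/-- delete `k` pairs of the stream from `A` -/
noncomputable def delP (k : Nat) : Nat → Nat → (Nat → Nat → Bool) → Bool :=
  Nat.rec (motive := fun _ => Nat → Nat → (Nat → Nat → Bool) → Bool) (fun S A K => K A S)
    (fun _ ih S A K =>
      ih (Nat.shiftRight S 20)
        (Nat.xor A (Nat.land A (Nat.shiftLeft 1 (Nat.land S 1048575)))) K) k

/-- for `k` pairs `(x, c)` of the stream: delete the other colours of `x` -/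
noncomputable def delN (N V k : Nat) : Nat → Nat → (Nat → Nat → Bool) → Bool :=
  Nat.rec (motive := fun _ => Nat → Nat → (Nat → Nat → Bool) → Bool) (fun S A K => K A S)
    (fun _ ih S A K =>
      ih (Nat.shiftRight S 20)
        (Nat.xor A (Nat.land A (Nat.xor (Nat.shiftLeft V (Nat.mod (Nat.land S 1048575) N))
          (Nat.shiftLeft 1 (Nat.land S 1048575))))) K) k

theorem delP_spec : ∀ (k S A : Nat) (K : Nat → Nat → Bool), delP k S A K = true →
    ∃ A' S', K A' S' = true := by
  intro k
  induction k with
  | zero => intro S A K h; exact ⟨A, S, h⟩
  | succ k ih => intro S A K h; exact ih _ _ _ h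

theorem delN_spec (N V : Nat) : ∀ (k S A : Nat) (K : Nat → Nat → Bool), delN N V k S A K = true →
    ∃ A' S', K A' S' = true := by
  intro k
  induction k with
  | zero => intro S A K h; exact ⟨A, S, h⟩
  | succ k ih => intro S A K h; exact ih _ _ _ h

/-- `t` nogoods -/
noncomputable def nog (N V J R A0 k p : Nat) (t : Nat) :
    Nat → Nat → DB → (Nat → DB → Bool) → Bool :=
  Nat.rec (motive := fun _ => Nat → Nat → DB → (Nat → DB → Bool) → Bool)
    (fun _ id db K => K id db)
    (fun _ ih S id db K =>
      delP (Nat.land S 1048575) (Nat.shiftRight S 20) A0 (fun A1 S1 =>
        delN N V (Nat.land S1 1048575) (Nat.shiftRight S1 20) A1 (fun A2 S2 =>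
          ev N V J R A0 db (Nat.land (Nat.shiftRight S2 20) 1048575) (Nat.shiftRight S2 40) A2
            (Nat.rec (motive := fun _ => Bool) true
              (fun _ _ => ih (Nat.shiftRight S2 (Nat.mul 20 (Nat.land S2 1048575))) (Nat.succ id)
                (ins (Nat.xor A0 A2) id k p db) K) (Nat.xor A0 A2))))) t

theorem nog_spec {N K J R A0 k p : Nat} (hR : R = 2 ^ N - 1) (f : Nat → Nat)
    (hK : ∀ x, x < N → f x < K)
    (hE : ∀ x y, x < N → y < N → J.testBit (x * N + y) = true → f x ≠ f y)
    (hN : 0 < N) (hA0 : Fits N f A0) :
    ∀ (t S id : Nat) (db : DB) (C : Nat → DB → Bool),
      nog N (V0 N K) J R A0 k p t S id db C = true →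
      db.All (Meets N f) → ∃ id' db', db'.All (Meets N f) ∧ C id' db' = true := by
  intro t
  induction t with
  | zero => intro S id db C h hdb; exact ⟨id, db, hdb, h⟩
  | succ t ih =>
    intro S id db C h hdb
    obtain ⟨A1, S1, h1⟩ := delP_spec _ _ _ _ h
    obtain ⟨A2, S2, h2⟩ := delN_spec _ _ _ _ _ _ h1
    obtain ⟨h3, h4⟩ := ev_spec hR _ _ _ _ h2
    have h5 : ¬ Fits N f A2 := h3 f hK hE ⟨0, hN, hA0 0 hN⟩ hdb
    have h6 : Meets N f (Nat.xor A0 A2) := by
      apply Classical.byContradiction
      intro hn
      apply h5
      intro x hx
      cases h7 : A2.testBit (f x * N + x) with
      | true => rfl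
      | false =>
        exfalso
        apply hn
        refine ⟨x, hx, ?_⟩
        change (A0 ^^^ A2).testBit _ = true
        rw [Nat.testBit_xor, hA0 x hx, h7]
        rfl
    generalize Nat.xor A0 A2 = D at h4 h6
    cases D with
    | zero =>
      obtain ⟨x, hx, h7⟩ := h6
      rw [Nat.zero_testBit] at h7
      exact Bool.noConfusion h7
    | succ D => exact ih _ _ _ _ h4 (ins_all h6 _ _ _ _ hdb)

/-- all parts -/
noncomputable def nogs (N V J R A0 k p : Nat) (P : List (Nat × Nat)) : Nat → DB → Bool :=
  List.rec (motive := fun _ => Nat → DB → Bool) (fun _ _ => false)
    (fun x _ ih id db => nog N V J R A0 k p x.1 x.2 id db ih) P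

/-- The checker. -/
noncomputable def checkL (N K J A0 k : Nat) (P : List (Nat × Nat)) : Bool :=
  force (Nat.sub (Nat.shiftLeft 1 N) 1) (fun R =>
    force (Nat.shiftLeft 1 (Nat.sub k 1)) (fun p =>
      force (V0 N K) (fun V => nogs N V J R A0 k p P 0 DB.nil)))

/-- **No list colouring**: `J` = adjacency (bit `x * N + y`), `A0` = lists (bit `c * N + x`). -/
theorem no_coloring_of_checkL {N K J A0 k : Nat} {P : List (Nat × Nat)} (hN : 0 < N)
    (h : checkL N K J A0 k P = true) (f : Nat → Nat) (hK : ∀ x, x < N → f x < K)
    (hA0 : ∀ x, x < N → A0.testBit (f x * N + x) = true)
    (hE : ∀ x y, x < N → y < N → J.testBit (x * N + y) = true → f x ≠ f y) : False := by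
  unfold checkL at h
  rw [force_eq, force_eq, force_eq] at h
  have hR : Nat.sub (Nat.shiftLeft 1 N) 1 = 2 ^ N - 1 := by
    change 1 <<< N - 1 = _
    rw [Nat.one_shiftLeft]
  have key : ∀ (P : List (Nat × Nat)) (id : Nat) (db : DB), db.All (Meets N f) →
      nogs N (V0 N K) J (Nat.sub (Nat.shiftLeft 1 N) 1) A0 k (Nat.shiftLeft 1 (Nat.sub k 1)) P
        id db = true → False := by
    intro P
    induction P with
    | nil => intro id db _ h; exact Bool.noConfusion h
    | cons x P ih =>
      intro id db hdb h
      obtain ⟨id', db', h1, h2⟩ := nog_spec hR f hK hE hN hA0 _ _ _ _ _ h hdb
      exact ih id' db' h1 h2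
  exact key P 0 DB.nil trivial h

end Vale.Agent.P032.H470
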