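/-!
# A kernel-evaluable checker for unsatisfiability proofs (reverse unit propagation, LRAT)

Variables are `0, 1, ..., n-1`.  The literal code `x < n` is the variable `x`, the code `n + x`
is its negation (`ilit`).  Inside, a clause is the bit mask of its literals.  All functions are written with recursors and with the
`Nat` operations that the kernel evaluates with GMP, so that `decide +kernel` is fast.
-/

namespace Vale.Agent.P032.H470

/-- value of a literal: code `x < n` = the variable `x`, code `n + x` = its negation -/
def ilit (n : Nat) (v : Nat → Bool) (l : Nat) : Bool :=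
  if l < n then v l else if l < n + n then !(v (l - n)) else false

/-- a clause given by a bit mask is satisfied -/
def MSat (n : Nat) (v : Nat → Bool) (D : Nat) : Prop := ∃ l, D.testBit l = true ∧ ilit n v l = true

/-- all true literals are alive in the mask `A` -/
def Tin (n : Nat) (v : Nat → Bool) (A : Nat) : Prop := ∀ l, ilit n v l = true → A.testBit l = true

/-- force the evaluation of a natural number -/
noncomputable def force {α : Type} (x : Nat) (k : Nat → α) : α :=
  Nat.rec (k 0) (fun m _ => k (Nat.succ m)) x

theorem force_eq {α : Type} (x : Nat) (k : Nat → α) : force x k = k x := by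
  cases x <;> rfl

/-- data base of clauses; `node p l r`: clauses whose number has `p` set are in `r` -/
inductive DB : Type
  | nil : DB
  | leaf : Nat → DB
  | node : Nat → DB → DB → DB

/-- all clauses of the data base are satisfied -/
def DB.AllS (n : Nat) (v : Nat → Bool) : DB → Prop
  | .nil => True
  | .leaf D => MSat n v D
  | .node _ l r => l.AllS n v ∧ r.AllS n v

/-- look up a clause; `d` = default value -/
noncomputable def get (d i : Nat) (db : DB) : Nat :=
  DB.rec (motive := fun _ => Nat) d (fun D => D)
    (fun p _ _ ihl ihr => Nat.rec (motive := fun _ => Nat) ihl (fun _ _ => ihr) (Nat.land i p)) db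

theorem get_sat {n : Nat} {v : Nat → Bool} {d : Nat} (hd : MSat n v d) (i : Nat) :
    ∀ (db : DB), db.AllS n v → MSat n v (get d i db) := by
  intro db
  induction db with
  | nil => intro _; exact hd
  | leaf D => intro h; exact h
  | node p l r ihl ihr =>
    intro h
    have key : ∀ b : Nat, MSat n v (Nat.rec (motive := fun _ => Nat) (get d i l)
        (fun _ _ => get d i r) b) := by
      intro b
      cases b with
      | zero => exact ihl h.1
      | succ b => exact ihr h.2
    exact key _

/-- insert a clause; `k` = depth of the tree, `p = 2 ^ (k - 1)` -/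
noncomputable def ins (D i : Nat) (k : Nat) : Nat → DB → DB :=
  Nat.rec (motive := fun _ => Nat → DB → DB) (fun _ _ => DB.leaf D)
    (fun _ ih p db =>
      DB.rec (motive := fun _ => DB)
        (Nat.rec (motive := fun _ => DB) (DB.node p (ih (Nat.div p 2) DB.nil) DB.nil)
          (fun _ _ => DB.node p DB.nil (ih (Nat.div p 2) DB.nil)) (Nat.land i p))
        (fun _ => Nat.rec (motive := fun _ => DB) (DB.node p (ih (Nat.div p 2) DB.nil) DB.nil)
          (fun _ _ => DB.node p DB.nil (ih (Nat.div p 2) DB.nil)) (Nat.land i p))
        (fun q l r _ _ => Nat.rec (motive := fun _ => DB) (DB.node q (ih (Nat.div p 2) l) r)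
          (fun _ _ => DB.node q l (ih (Nat.div p 2) r)) (Nat.land i q)) db) k

theorem ins_sat {n : Nat} {v : Nat → Bool} {D : Nat} (hD : MSat n v D) (i : Nat) :
    ∀ (k p : Nat) (db : DB), db.AllS n v → (ins D i k p db).AllS n v := by
  intro k
  induction k with
  | zero => intro p db _; exact hD
  | succ k ih =>
    intro p db h
    have key0 : ∀ b : Nat, (Nat.rec (motive := fun _ => DB)
        (DB.node p (ins D i k (Nat.div p 2) DB.nil) DB.nil)
        (fun _ _ => DB.node p DB.nil (ins D i k (Nat.div p 2) DB.nil)) b : DB).AllS n v := by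
      intro b
      cases b with
      | zero => exact ⟨ih _ _ trivial, trivial⟩
      | succ b => exact ⟨trivial, ih _ _ trivial⟩
    cases db with
    | nil => exact key0 _
    | leaf E => exact key0 _
    | node q l r =>
      have key : ∀ b : Nat, (Nat.rec (motive := fun _ => DB)
          (DB.node q (ins D i k (Nat.div p 2) l) r)
          (fun _ _ => DB.node q l (ins D i k (Nat.div p 2) r)) b : DB).AllS n v := by
        intro b
        cases b with
        | zero => exact ⟨ih _ _ h.1, h.2⟩
        | succ b => exact ⟨h.1, ih _ _ h.2⟩
      exact key _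

/-- read `k` literals (digits in base `2^20`) from the stream `S` -/
noncomputable def readL (k : Nat) : Nat → Nat → (Nat → Nat → Bool) → Bool :=
  Nat.rec (motive := fun _ => Nat → Nat → (Nat → Nat → Bool) → Bool)
    (fun S acc K => K acc S)
    (fun _ ih S acc K =>
      ih (Nat.shiftRight S 20) (Nat.lor acc (Nat.shiftLeft 1 (Nat.land S 1048575))) K) k

theorem readL_spec : ∀ (k S acc : Nat) (K : Nat → Nat → Bool), readL k S acc K = true →
    ∃ C S', K C S' = true := by
  intro k
  induction k with
  | zero => intro S acc K h; exact ⟨acc, S, h⟩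
  | succ k ih => intro S acc K h; exact ih _ _ _ h

/-- unit propagation along the hints; `Q = 2 ^ (2n) - 1`, `A` = mask of the alive literals -/
noncomputable def prop (n Q d : Nat) (db : DB) (m : Nat) : Nat → Nat → (Nat → Bool) → Bool :=
  Nat.rec (motive := fun _ => Nat → Nat → (Nat → Bool) → Bool)
    (fun _ _ _ => false)
    (fun m ih S A K =>
      Nat.rec (motive := fun _ => Bool) false
        (fun i _ =>
          Nat.rec (motive := fun _ => Bool) (K (Nat.shiftRight S (Nat.mul 20 (Nat.succ m))))
            (fun q _ =>
              Nat.rec (motive := fun _ => Bool)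
                (ih (Nat.shiftRight S 20)
                  (Nat.xor A (Nat.mod (Nat.shiftLeft (Nat.succ q) n) Q)) K)
                (fun _ _ => false) (Nat.land (Nat.succ q) q))
            (Nat.land (get d i db) A))
        (Nat.land S 1048575)) m

theorem rot_lt {n l : Nat} (h : l < n) :
    Nat.mod (Nat.shiftLeft (2 ^ l) n) (2 ^ (n + n) - 1) = 2 ^ (l + n) := by
  have h0 : Nat.shiftLeft (2 ^ l) n = 2 ^ (l + n) := by
    change 2 ^ l <<< n = _
    rw [Nat.shiftLeft_eq, ← Nat.pow_add]
  rw [h0]
  apply Nat.mod_eq_of_lt
  have h1 : 2 ^ (l + n + 1) ≤ 2 ^ (n + n) := Nat.pow_le_pow_right (by decide) (by omega)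
  have h2 : 2 ^ 1 ≤ 2 ^ (l + n) := Nat.pow_le_pow_right (by decide) (by omega)
  rw [Nat.pow_succ] at h1
  omega

theorem rot_ge {n l : Nat} (h : n ≤ l) (h' : l < n + n) :
    Nat.mod (Nat.shiftLeft (2 ^ l) n) (2 ^ (n + n) - 1) = 2 ^ (l - n) := by
  have h0 : Nat.shiftLeft (2 ^ l) n = 2 ^ (l - n) + 2 ^ (l - n) * (2 ^ (n + n) - 1) := by
    change 2 ^ l <<< n = _
    have h3 : 2 ^ l <<< n = 2 ^ (l - n) * 2 ^ (n + n) := by
      rw [Nat.shiftLeft_eq, ← Nat.pow_add, ← Nat.pow_add]
      congr 1
      omega
    have h4 : 0 < 2 ^ (n + n) := Nat.pow_pos (by decide)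
    rw [h3, Nat.mul_sub, Nat.mul_one]
    have h5 : 2 ^ (l - n) * 1 ≤ 2 ^ (l - n) * 2 ^ (n + n) := Nat.mul_le_mul_left _ h4
    omega
  rw [h0]
  change (2 ^ (l - n) + 2 ^ (l - n) * (2 ^ (n + n) - 1)) % (2 ^ (n + n) - 1) = _
  rw [Nat.add_mul_mod_self_right]
  apply Nat.mod_eq_of_lt
  have h1 : 2 ^ (l - n + 1 + 1) ≤ 2 ^ (n + n) := Nat.pow_le_pow_right (by decide) (by omega)
  have h2 : 0 < 2 ^ (l - n) := Nat.pow_pos (by decide)
  rw [Nat.pow_succ, Nat.pow_succ] at h1
  omega

theorem prop_spec {n Q d : Nat} {db : DB} (hQ : Q = 2 ^ (n + n) - 1) :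
    ∀ (m S A : Nat) (K : Nat → Bool), prop n Q d db m S A K = true →
      (∀ v, MSat n v d → db.AllS n v → ¬ Tin n v A) ∧ ∃ S', K S' = true := by
  intro m
  induction m with
  | zero => intro S A K h; exact absurd h (by simp [prop])
  | succ m ih =>
    intro S A K h
    change Nat.rec (motive := fun _ => Bool) false
        (fun i _ =>
          Nat.rec (motive := fun _ => Bool) (K (Nat.shiftRight S (Nat.mul 20 (Nat.succ m))))
            (fun q _ =>
              Nat.rec (motive := fun _ => Bool)
                (prop n Q d db m (Nat.shiftRight S 20)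
                  (Nat.xor A (Nat.mod (Nat.shiftLeft (Nat.succ q) n) Q)) K)
                (fun _ _ => false) (Nat.land (Nat.succ q) q))
            (Nat.land (get d i db) A))
        (Nat.land S 1048575) = true at h
    cases hi : Nat.land S 1048575 with
    | zero => rw [hi] at h; exact Bool.noConfusion h
    | succ i =>
      rw [hi] at h
      change Nat.rec (motive := fun _ => Bool) (K (Nat.shiftRight S (Nat.mul 20 (Nat.succ m))))
            (fun q _ =>
              Nat.rec (motive := fun _ => Bool)
                (prop n Q d db m (Nat.shiftRight S 20)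
                  (Nat.xor A (Nat.mod (Nat.shiftLeft (Nat.succ q) n) Q)) K)
                (fun _ _ => false) (Nat.land (Nat.succ q) q))
            (Nat.land (get d i db) A) = true at h
      generalize hD : get d i db = D at h
      have hDs : ∀ v, MSat n v d → db.AllS n v → MSat n v D := by
        intro v hd hdb
        rw [← hD]
        exact get_sat hd i db hdb
      have hand : ∀ l, (Nat.land D A).testBit l = (D.testBit l && A.testBit l) := by
        intro l
        exact Nat.testBit_and D A l
      generalize hr : Nat.land D A = r at h hand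
      cases r with
      | zero =>
        refine ⟨?_, _, h⟩
        intro v hd hdb hT
        obtain ⟨l, h1, h2⟩ := hDs v hd hdb
        have h3 := hand l
        rw [Nat.zero_testBit, h1, hT l h2] at h3
        exact Bool.noConfusion h3
      | succ q =>
        change Nat.rec (motive := fun _ => Bool)
                (prop n Q d db m (Nat.shiftRight S 20)
                  (Nat.xor A (Nat.mod (Nat.shiftLeft (Nat.succ q) n) Q)) K)
                (fun _ _ => false) (Nat.land (Nat.succ q) q) = true at h
        cases hq : Nat.land (Nat.succ q) q with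
        | succ q' => rw [hq] at h; exact Bool.noConfusion h
        | zero =>
          rw [hq] at h
          change prop n Q d db m (Nat.shiftRight S 20)
                  (Nat.xor A (Nat.mod (Nat.shiftLeft (Nat.succ q) n) Q)) K = true at h
          obtain ⟨h1, h2⟩ := ih _ _ _ h
          refine ⟨?_, h2⟩
          intro v hd hdb hT
          refine h1 v hd hdb ?_
          obtain ⟨l, hl⟩ : (q + 1).isPowerOfTwo := by
            refine (Nat.and_sub_one_eq_zero_iff_isPowerOfTwo (Nat.succ_ne_zero q)).1 ?_
            exact hq
          -- the literal `l` is true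
          have hlt : ilit n v l = true := by
            obtain ⟨l', h3, h4⟩ := hDs v hd hdb
            have h5 := hand l'
            rw [h3, hT l' h4, show q + 1 = 2 ^ l from hl, Nat.testBit_two_pow] at h5
            have : l = l' := by simpa using h5
            rw [this]; exact h4
          have hl2 : l < n + n := by
            apply Classical.byContradiction
            intro hc
            unfold ilit at hlt
            rw [if_neg (by omega), if_neg hc] at hlt
            exact Bool.noConfusion hlt
          intro l' hl'
          change (A ^^^ (Nat.mod (Nat.shiftLeft (q + 1) n) Q)).testBit l' = true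
          rw [hl, hQ, Nat.testBit_xor, hT l' hl']
          by_cases hln : l < n
          · rw [rot_lt hln, Nat.testBit_two_pow]
            have hne : l + n ≠ l' := by
              intro he
              unfold ilit at hlt hl'
              rw [if_pos hln] at hlt
              rw [if_neg (by omega), if_pos (by omega), ← he, Nat.add_sub_cancel, hlt] at hl'
              exact Bool.noConfusion hl'
            simp [hne]
          · rw [rot_ge (by omega) hl2, Nat.testBit_two_pow]
            have hne : l - n ≠ l' := by
              intro he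
              unfold ilit at hlt hl'
              rw [if_neg hln, if_pos hl2] at hlt
              rw [if_pos (by omega), ← he] at hl'
              rw [hl'] at hlt
              exact Bool.noConfusion hlt
            simp [hne]

/-- `t` steps of the proof from the stream `S`; `id` = number of the next clause,
`p = 2 ^ (k - 1)` -/
noncomputable def loop (n Q d k p : Nat) (t : Nat) : Nat → Nat → DB → (Nat → DB → Bool) → Bool :=
  Nat.rec (motive := fun _ => Nat → Nat → DB → (Nat → DB → Bool) → Bool)
    (fun _ id db K => K id db)
    (fun _ ih S id db K =>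
      readL (Nat.land S 1048575) (Nat.shiftRight S 20) 0 (fun C S2 =>
        prop n Q d db (Nat.land S2 1048575) (Nat.shiftRight S2 20) (Nat.xor Q C) (fun S4 =>
          Nat.rec (motive := fun _ => Bool) true
            (fun _ _ => ih S4 (Nat.succ id) (ins C id k p db) K) C))) t

theorem ilit_lt {n : Nat} {v : Nat → Bool} {l : Nat} (h : ilit n v l = true) : l < n + n := by
  apply Classical.byContradiction
  intro hc
  unfold ilit at h
  rw [if_neg (by omega), if_neg hc] at h
  exact Bool.noConfusion h

theorem loop_spec {n Q d k p : Nat} (hQ : Q = 2 ^ (n + n) - 1) :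
    ∀ (t S id : Nat) (db : DB) (K : Nat → DB → Bool), loop n Q d k p t S id db K = true →
      ∀ v, MSat n v d → db.AllS n v → ∃ id' db', db'.AllS n v ∧ K id' db' = true := by
  intro t
  induction t with
  | zero => intro S id db K h v _ hdb; exact ⟨id, db, hdb, h⟩
  | succ t ih =>
    intro S id db K h v hd hdb
    obtain ⟨C, S2, h1⟩ := readL_spec _ _ _ _ h
    obtain ⟨h2, S4, h3⟩ := prop_spec hQ _ _ _ _ h1
    have h4 : ¬ Tin n v (Nat.xor Q C) := h2 v hd hdb
    have hC : MSat n v C := by
      apply Classical.byContradiction
      intro hn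
      apply h4
      intro l hl
      change (Q ^^^ C).testBit l = true
      rw [Nat.testBit_xor, hQ, Nat.testBit_two_pow_sub_one]
      have h5 := ilit_lt hl
      cases hv : C.testBit l with
      | false => simp [h5]
      | true => exact absurd ⟨l, hv, hl⟩ hn
    cases C with
    | zero =>
      obtain ⟨l, hl, _⟩ := hC
      rw [Nat.zero_testBit] at hl
      exact Bool.noConfusion hl
    | succ C =>
      exact ih _ _ _ _ h3 v hd (ins_sat hC _ _ _ _ hdb)

/-- all parts of the proof -/
noncomputable def parts (n Q d k p : Nat) (P : List (Nat × Nat)) : Nat → DB → Bool :=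
  List.rec (motive := fun _ => Nat → DB → Bool) (fun _ _ => false)
    (fun x _ ih id db => loop n Q d k p x.1 x.2 id db ih) P

theorem parts_spec {n Q d k p : Nat} (hQ : Q = 2 ^ (n + n) - 1) :
    ∀ (P : List (Nat × Nat)) (id : Nat) (db : DB), parts n Q d k p P id db = true →
      ∀ v, MSat n v d → ¬ db.AllS n v := by
  intro P
  induction P with
  | nil => intro id db h; exact absurd h (by simp [parts])
  | cons x P ih =>
    intro id db h v hd hdb
    obtain ⟨id', db', h1, h2⟩ := loop_spec hQ _ _ _ _ _ h v hd hdb
    exact ih id' db' h2 v hd h1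

/-- bit mask of a clause -/
noncomputable def mask (c : List Nat) : Nat → Nat :=
  List.rec (motive := fun _ => Nat → Nat) (fun acc => acc)
    (fun l _ ih acc => ih (Nat.lor acc (Nat.shiftLeft 1 l))) c

theorem mask_spec {n : Nat} {v : Nat → Bool} :
    ∀ (c : List Nat) (acc : Nat), (MSat n v acc ∨ ∃ l ∈ c, ilit n v l = true) →
      MSat n v (mask c acc) := by
  intro c
  induction c with
  | nil =>
    intro acc hs
    rcases hs with hs | ⟨l, hl, _⟩
    · exact hs
    · exact absurd hl (by simp)
  | cons l c ih =>
    intro acc hs
    refine ih _ ?_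
    have hor : ∀ j, (acc ||| (1 <<< l)).testBit j = (acc.testBit j || decide (l = j)) := by
      intro j
      rw [Nat.testBit_or, Nat.one_shiftLeft, Nat.testBit_two_pow]
    rcases hs with ⟨j, h1, h2⟩ | ⟨l', hl', h2⟩
    · left
      refine ⟨j, ?_, h2⟩
      change (acc ||| (1 <<< l)).testBit j = true
      rw [hor, h1]; rfl
    · rcases List.mem_cons.1 hl' with rfl | hl''
      · left
        refine ⟨l', ?_, h2⟩
        change (acc ||| (1 <<< l')).testBit _ = true
        rw [hor]; simp
      · right; exact ⟨l', hl'', h2⟩

/-- load the formula: a balanced tree with `2 ^ k` leaves, `p = 2 ^ (k - 1)` -/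
noncomputable def load (k : Nat) : Nat → List (List Nat) → (DB → List (List Nat) → Bool) → Bool :=
  Nat.rec (motive := fun _ => Nat → List (List Nat) → (DB → List (List Nat) → Bool) → Bool)
    (fun _ F K => List.rec (motive := fun _ => Bool) (K DB.nil [])
      (fun c F _ => K (DB.leaf (mask c 0)) F) F)
    (fun _ ih p F K => List.rec (motive := fun _ => Bool) (K DB.nil [])
      (fun c F _ => ih (Nat.div p 2) (c :: F) (fun l F' => ih (Nat.div p 2) F'
        (fun r F'' => K (DB.node p l r) F''))) F) k

theorem load_spec {n : Nat} {v : Nat → Bool} :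
    ∀ (k p : Nat) (F : List (List Nat)) (K : DB → List (List Nat) → Bool),
      load k p F K = true → (∀ c ∈ F, ∃ l ∈ c, ilit n v l = true) →
      ∃ db F', db.AllS n v ∧ (∀ c ∈ F', ∃ l ∈ c, ilit n v l = true) ∧ K db F' = true := by
  intro k
  induction k with
  | zero =>
    intro p F K h hF
    cases F with
    | nil => exact ⟨DB.nil, [], trivial, hF, h⟩
    | cons c F =>
      exact ⟨DB.leaf (mask c 0), F, mask_spec c 0 (Or.inr (hF c (List.mem_cons_self ..))),
        fun c' hc' => hF c' (List.mem_cons_of_mem _ hc'), h⟩
  | succ k ih =>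
    intro p F K h hF
    cases F with
    | nil => exact ⟨DB.nil, [], trivial, hF, h⟩
    | cons c F =>
      obtain ⟨l, F', h1, h2, h3⟩ := ih _ _ _ h hF
      obtain ⟨r, F'', h4, h5, h6⟩ := ih _ _ _ h3 h2
      exact ⟨DB.node p l r, F'', ⟨h1, h4⟩, h5, h6⟩

/-- The checker: `n` variables, `k` = depth of the tree (`2^k` > number of clauses),
`m` = number of the first derived clause. -/
noncomputable def check (n k m : Nat) (F : List (List Nat)) (P : List (Nat × Nat)) : Bool :=
  force (Nat.sub (Nat.shiftLeft 1 (Nat.add n n)) 1) (fun Q =>
    force (Nat.shiftLeft 1 (Nat.sub k 1)) (fun p =>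
      load k p F (fun db _ => parts n Q Q k p P m db)))

/-- **Soundness.**  Literal codes: `x` (`x < n`) is the variable `x`, `n + x` its negation. -/
theorem unsat_of_check {n k m : Nat} {F : List (List Nat)} {P : List (Nat × Nat)}
    (hn : 0 < n) (h : check n k m F P = true) (v : Nat → Bool) :
    ¬ ∀ c ∈ F, ∃ l ∈ c, ilit n v l = true := by
  intro hF
  unfold check at h
  rw [force_eq, force_eq] at h
  have hQ : Nat.sub (Nat.shiftLeft 1 (Nat.add n n)) 1 = 2 ^ (n + n) - 1 := by
    change 1 <<< (n + n) - 1 = _
    rw [Nat.one_shiftLeft]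
  rw [hQ] at h
  obtain ⟨db, F', h1, -, h2⟩ := load_spec k _ F _ h hF
  refine parts_spec rfl P m db h2 v ?_ h1
  -- the default clause: all literals
  have hb : ∀ l, l < n + n → (2 ^ (n + n) - 1).testBit l = true := by
    intro l hl
    rw [Nat.testBit_two_pow_sub_one]
    exact decide_eq_true hl
  cases hv : v 0 with
  | true => exact ⟨0, hb 0 (by omega), by simp [ilit, hn, hv]⟩
  | false => exact ⟨n, hb n (by omega), by simp [ilit, hv, hn]⟩

end Vale.Agent.P032.H470
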